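import Vale.Agent.P100.H39.Comp

namespace Vale.Agent.P100

open Set Filter Topology

/-- radial barriers -/
noncomputable def bar {n : ℕ} (α β γ m : ℝ) (x : EuclideanSpace ℝ (Fin n)) : ℝ :=
  α + β * Real.log (‖x‖ ^ 2) + γ * (‖x‖ ^ 2) ^ m

theorem bar_cda {n : ℕ} (α β γ m : ℝ) (x : EuclideanSpace ℝ (Fin n)) (hx : x ≠ 0) :
    ContDiffAt ℝ 2 (bar (n := n) α β γ m) x := by
  have h1 : ContDiffAt ℝ 2 (fun y : EuclideanSpace ℝ (Fin n) => ‖y‖ ^ 2) x :=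
    (contDiff_norm_sq ℝ).contDiffAt
  have h2 : ‖x‖ ^ 2 ≠ 0 := by positivity
  unfold bar
  exact (contDiffAt_const.add (contDiffAt_const.mul (h1.log h2))).add
    (contDiffAt_const.mul (h1.rpow_const_of_ne h2))

theorem one_dim (α β γ m s c : ℝ) (hs : 0 < s) :
    deriv (deriv fun t : ℝ => α + β * Real.log (s + 2 * c * t + t ^ 2) +
      γ * (s + 2 * c * t + t ^ 2) ^ m) 0 =
    β * (2 * s - 4 * c ^ 2) / s ^ 2 +
      γ * m * ((m - 1) * s ^ (m - 2) * (4 * c ^ 2) + 2 * s ^ (m - 1)) := by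
  have hq : ∀ t : ℝ, HasDerivAt (fun t : ℝ => s + 2 * c * t + t ^ 2) (2 * c + 2 * t) t := by
    intro t
    have h1 : HasDerivAt (fun t : ℝ => s + 2 * c * t) (2 * c) t := by
      simpa using ((hasDerivAt_id t).const_mul (2 * c)).const_add s
    have h2 : HasDerivAt (fun t : ℝ => t ^ 2) (2 * t) t := by
      simpa using hasDerivAt_pow 2 t
    exact h1.add h2
  have hpos : ∀ᶠ t in 𝓝 (0 : ℝ), 0 < s + 2 * c * t + t ^ 2 := by
    have hc : ContinuousAt (fun t : ℝ => s + 2 * c * t + t ^ 2) 0 := (hq 0).continuousAt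
    refine hc.eventually_const_lt ?_
    simpa using hs
  have hd : (deriv fun t : ℝ => α + β * Real.log (s + 2 * c * t + t ^ 2) +
      γ * (s + 2 * c * t + t ^ 2) ^ m) =ᶠ[𝓝 0] fun t =>
      β * ((2 * c + 2 * t) / (s + 2 * c * t + t ^ 2)) +
      γ * ((2 * c + 2 * t) * m * (s + 2 * c * t + t ^ 2) ^ (m - 1)) := by
    filter_upwards [hpos] with t ht
    have e1 := ((hq t).log ht.ne').const_mul β
    have e2 := ((hq t).rpow_const (p := m) (Or.inl ht.ne')).const_mul γ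
    exact ((e1.const_add α).add e2).deriv
  rw [hd.deriv_eq]
  have hl : HasDerivAt (fun t : ℝ => 2 * c + 2 * t) 2 0 := by
    simpa using ((hasDerivAt_id (0 : ℝ)).const_mul 2).const_add (2 * c)
  have h00 : s + 2 * c * 0 + 0 ^ 2 ≠ 0 := by
    simpa using hs.ne'
  have e1 := (hl.div (hq 0) h00).const_mul β
  have e2 := ((hl.mul_const m).mul ((hq 0).rpow_const (p := m - 1) (Or.inl h00))).const_mul γ
  have e3 := (e1.add e2).deriv
  refine Eq.trans e3 ?_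
  have hm : m - 1 - 1 = m - 2 := by ring
  simp only [mul_zero, add_zero, ne_eq, OfNat.ofNat_ne_zero, not_false_eq_true, zero_pow, hm]
  field_simp
  ring

theorem norm_line {n : ℕ} (x : EuclideanSpace ℝ (Fin n)) (i : Fin n) (t : ℝ) :
    ‖x + t • EuclideanSpace.single i (1 : ℝ)‖ ^ 2 = ‖x‖ ^ 2 + 2 * x i * t + t ^ 2 := by
  rw [norm_add_sq_real, norm_smul, inner_smul_right]
  simp [EuclideanSpace.inner_single_right]
  ring

theorem lap_bar {n : ℕ} (α β γ : ℝ) (x : EuclideanSpace ℝ (Fin n)) (hx : x ≠ 0) :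
    lap (bar (n := n) α β γ ((2 - (n : ℝ)) / 2)) x = β * (2 * n - 4) / ‖x‖ ^ 2 := by
  set m : ℝ := (2 - (n : ℝ)) / 2 with hm
  have hs : 0 < ‖x‖ ^ 2 := by positivity
  have h1 : ∀ i : Fin n, deriv (deriv fun t : ℝ =>
      bar (n := n) α β γ m (x + t • EuclideanSpace.single i (1 : ℝ))) 0 =
      β * (2 * ‖x‖ ^ 2 - 4 * (x i) ^ 2) / (‖x‖ ^ 2) ^ 2 +
      γ * m * ((m - 1) * (‖x‖ ^ 2) ^ (m - 2) * (4 * (x i) ^ 2) + 2 * (‖x‖ ^ 2) ^ (m - 1)) := by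
    intro i
    rw [← one_dim α β γ m (‖x‖ ^ 2) (x i) hs]
    congr 2
    funext t
    rw [bar, norm_line]
  unfold lap
  rw [Finset.sum_congr rfl fun i _ => h1 i]
  have h2 : ∑ i, (x i) ^ 2 = ‖x‖ ^ 2 := by
    rw [EuclideanSpace.norm_sq_eq]
    simp
  have h3 : (‖x‖ ^ 2) ^ (m - 1) = (‖x‖ ^ 2) ^ (m - 2) * ‖x‖ ^ 2 := by
    rw [← Real.rpow_add_one hs.ne']
    congr 1
    ring
  have h4 : ∑ i : Fin n, (β * (2 * ‖x‖ ^ 2 - 4 * (x i) ^ 2) / (‖x‖ ^ 2) ^ 2 +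
      γ * m * ((m - 1) * (‖x‖ ^ 2) ^ (m - 2) * (4 * (x i) ^ 2) + 2 * (‖x‖ ^ 2) ^ (m - 1))) =
      β * (2 * n * ‖x‖ ^ 2 - 4 * ∑ i, (x i) ^ 2) / (‖x‖ ^ 2) ^ 2 +
      γ * m * ((m - 1) * (‖x‖ ^ 2) ^ (m - 2) * (4 * ∑ i, (x i) ^ 2) +
        2 * n * (‖x‖ ^ 2) ^ (m - 1)) := by
    rw [Finset.sum_add_distrib]
    simp only [← Finset.sum_div, ← Finset.mul_sum, Finset.sum_sub_distrib, Finset.sum_add_distrib,
      Finset.sum_const, Finset.card_univ, Fintype.card_fin, nsmul_eq_mul]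
    ring
  rw [h4, h2, h3]
  have h5 : (m - 1) * 4 + 2 * n = 0 := by
    rw [hm]
    ring
  have h6 : γ * m * ((m - 1) * (‖x‖ ^ 2) ^ (m - 2) * (4 * ‖x‖ ^ 2) +
        2 * n * ((‖x‖ ^ 2) ^ (m - 2) * ‖x‖ ^ 2)) =
        γ * m * (‖x‖ ^ 2) ^ (m - 2) * ‖x‖ ^ 2 * ((m - 1) * 4 + 2 * n) := by ring
  rw [h6, h5, mul_zero, add_zero]
  field_simp

end Vale.Agent.P100
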