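import Vale.Agent.P100.H39.Defs

namespace Vale.Agent.P100

open Set Filter Topology

theorem second_nonneg {g : ℝ → ℝ} (hg : ContDiffAt ℝ 2 g 0) (hm : IsLocalMin g 0) :
    0 ≤ deriv (deriv g) 0 := by
  by_contra hneg
  push Not at hneg
  have hd : deriv g 0 = 0 := hm.deriv_eq_zero
  have hM : IsLocalMax g 0 := isLocalMax_of_deriv_deriv_neg hneg hd hg.continuousAt
  have he : g =ᶠ[𝓝 0] fun _ => g 0 := by
    filter_upwards [hm, hM] with t h1 h2
    exact le_antisymm h2 h1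
  have h1 : deriv g =ᶠ[𝓝 0] deriv fun _ => g 0 := he.deriv
  have h2 : deriv (deriv g) 0 = deriv (deriv fun _ : ℝ => g 0) 0 := h1.deriv_eq
  have h3 : deriv (fun _ : ℝ => g 0) = fun _ => 0 := by
    funext t
    simp
  rw [h2, h3] at hneg
  simp at hneg

theorem line_cda {n : ℕ} {u : EuclideanSpace ℝ (Fin n) → ℝ} {x : EuclideanSpace ℝ (Fin n)}
    (hu : ContDiffAt ℝ 2 u x) (e : EuclideanSpace ℝ (Fin n)) :
    ContDiffAt ℝ 2 (fun t : ℝ => u (x + t • e)) 0 := by
  have h1 : ContDiffAt ℝ 2 u (x + (0 : ℝ) • e) := by simpa using hu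
  exact ContDiffAt.comp (g := u) (f := fun t : ℝ => x + t • e) (0 : ℝ) h1 (by fun_prop)

theorem deriv_sub2 {f g : ℝ → ℝ} (hf : ContDiffAt ℝ 2 f 0) (hg : ContDiffAt ℝ 2 g 0) :
    deriv (deriv fun t => f t - g t) 0 = deriv (deriv f) 0 - deriv (deriv g) 0 := by
  have hf1 : ∀ᶠ t in 𝓝 (0 : ℝ), DifferentiableAt ℝ f t := by
    filter_upwards [hf.eventually (by simp)] with t ht
    exact ht.differentiableAt (by norm_num)
  have hg1 : ∀ᶠ t in 𝓝 (0 : ℝ), DifferentiableAt ℝ g t := by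
    filter_upwards [hg.eventually (by simp)] with t ht
    exact ht.differentiableAt (by norm_num)
  have h1 : (deriv fun t => f t - g t) =ᶠ[𝓝 0] fun t => deriv f t - deriv g t := by
    filter_upwards [hf1, hg1] with t a b
    exact deriv_fun_sub a b
  rw [h1.deriv_eq]
  have hf2 : DifferentiableAt ℝ (deriv f) 0 :=
    (hf.derivWithin (m := 1) (by norm_num)).differentiableAt (by norm_num)
  have hg2 : DifferentiableAt ℝ (deriv g) 0 :=
    (hg.derivWithin (m := 1) (by norm_num)).differentiableAt (by norm_num)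
  exact deriv_fun_sub hf2 hg2

theorem lap_sub {n : ℕ} {u h : EuclideanSpace ℝ (Fin n) → ℝ} {x : EuclideanSpace ℝ (Fin n)}
    (hu : ContDiffAt ℝ 2 u x) (hh : ContDiffAt ℝ 2 h x) :
    lap (fun y => u y - h y) x = lap u x - lap h x := by
  unfold lap
  rw [← Finset.sum_sub_distrib]
  refine Finset.sum_congr rfl fun i _ => ?_
  exact deriv_sub2 (line_cda hu _) (line_cda hh _)

theorem lap_nonneg {n : ℕ} {w : EuclideanSpace ℝ (Fin n) → ℝ} {x : EuclideanSpace ℝ (Fin n)}
    (hw : ContDiffAt ℝ 2 w x) (hm : IsLocalMin w x) : 0 ≤ lap w x := by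
  refine Finset.sum_nonneg fun i _ => second_nonneg (line_cda hw _) ?_
  have hc : ContinuousAt (fun t : ℝ => x + t • EuclideanSpace.single i (1 : ℝ)) 0 := by
    fun_prop
  have hx : Tendsto (fun t : ℝ => x + t • EuclideanSpace.single i (1 : ℝ)) (𝓝 0) (𝓝 x) := by
    have := hc.tendsto
    simpa using this
  have h2 := hx.eventually hm
  filter_upwards [h2] with t ht
  simpa using ht

/-- comparison on an annulus -/
theorem compare {n : ℕ} {u h : EuclideanSpace ℝ (Fin n) → ℝ} {a b : ℝ} (ha : 0 < a)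
    (hu : Continuous u) (hu2 : ContDiffOn ℝ 2 u {0}ᶜ) (hh2 : ∀ x, x ≠ 0 → ContDiffAt ℝ 2 h x)
    (hlap : ∀ x, a < ‖x‖ → ‖x‖ < b → lap u x < lap h x)
    (hA : ∀ x, ‖x‖ = a → h x ≤ u x) (hB : ∀ x, ‖x‖ = b → h x ≤ u x) (x : EuclideanSpace ℝ (Fin n))
    (hx1 : a ≤ ‖x‖) (hx2 : ‖x‖ ≤ b) : h x ≤ u x := by
  set K : Set (EuclideanSpace ℝ (Fin n)) := {y | a ≤ ‖y‖ ∧ ‖y‖ ≤ b} with hK
  have hKc : IsCompact K := by
    refine Metric.isCompact_of_isClosed_isBounded ?_ ?_
    · exact (isClosed_le continuous_const continuous_norm).inter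
        (isClosed_le continuous_norm continuous_const)
    · exact isBounded_iff_forall_norm_le.2 ⟨b, fun y hy => hy.2⟩
  have h0 : ∀ y ∈ K, y ≠ 0 := by
    intro y hy h
    have := hy.1
    rw [h, norm_zero] at this
    linarith
  have hcont : ContinuousOn (fun y => u y - h y) K :=
    hu.continuousOn.sub fun y hy => (hh2 y (h0 y hy)).continuousAt.continuousWithinAt
  obtain ⟨z, hz, hzmin⟩ := hKc.exists_isMinOn ⟨x, hx1, hx2⟩ hcont
  have hxz : u z - h z ≤ u x - h x := hzmin ⟨hx1, hx2⟩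
  have hzpos : 0 ≤ u z - h z := by
    rcases eq_or_lt_of_le hz.1 with e1 | l1
    · linarith [hA z e1.symm]
    rcases eq_or_lt_of_le hz.2 with e2 | l2
    · linarith [hB z e2]
    exfalso
    have hnb : K ∈ 𝓝 z := by
      have : {y : EuclideanSpace ℝ (Fin n) | a < ‖y‖ ∧ ‖y‖ < b} ∈ 𝓝 z :=
        ((isOpen_lt continuous_const continuous_norm).inter
          (isOpen_lt continuous_norm continuous_const)).mem_nhds ⟨l1, l2⟩
      filter_upwards [this] with y hy
      exact ⟨hy.1.le, hy.2.le⟩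
    have hloc : IsLocalMin (fun y => u y - h y) z := hzmin.isLocalMin hnb
    have hz0 := h0 z hz
    have hu3 : ContDiffAt ℝ 2 u z := hu2.contDiffAt (isOpen_compl_singleton.mem_nhds hz0)
    have h5 := lap_nonneg (hu3.sub (hh2 z hz0)) hloc
    have h6 := lap_sub hu3 (hh2 z hz0)
    have h7 := hlap z l1 l2
    have h8 : lap (fun y => u y - h y) z = lap (u - h) z := rfl
    rw [h6] at h8
    linarith
  linarith

end Vale.Agent.P100
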