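import Mathlib

/-! P100: the Henon-Lane-Emden system. -/

namespace Vale.Agent.P100

/-- The Laplacian of `u` at `x`: the sum of the pure second partial derivatives. -/
noncomputable def lap {n : ℕ} (u : EuclideanSpace ℝ (Fin n) → ℝ)
    (x : EuclideanSpace ℝ (Fin n)) : ℝ :=
  ∑ i, deriv (deriv fun t : ℝ => u (x + t • EuclideanSpace.single i (1 : ℝ))) 0

/-- Positive entire solutions of the Henon-Lane-Emden system
`-lap u = |x|^A v^p`, `-lap v = |x|^B u^q` on the complement of the origin of `ℝ^n`: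
`u, v` are continuous on `ℝ^n`, twice continuously differentiable away from `0`, positive. -/
structure IsEntireSolution (n : ℕ) (p q A B : ℝ)
    (u v : EuclideanSpace ℝ (Fin n) → ℝ) : Prop where
  contu : Continuous u
  contv : Continuous v
  smoothu : ContDiffOn ℝ 2 u {0}ᶜ
  smoothv : ContDiffOn ℝ 2 v {0}ᶜ
  posu : ∀ x, 0 < u x
  posv : ∀ x, 0 < v x
  equ : ∀ x, x ≠ 0 → - lap u x = ‖x‖ ^ A * v x ^ p
  eqv : ∀ x, x ≠ 0 → - lap v x = ‖x‖ ^ B * u x ^ q

end Vale.Agent.P100
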