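import Vale.Agent.P100.H39.Main

namespace Vale.Agent.P100

open Set Filter Topology

/-- a positive superharmonic function dominates a multiple of the fundamental solution -/
theorem lower {n : ℕ} (hn : 3 ≤ n) {u : EuclideanSpace ℝ (Fin n) → ℝ} (hu : Continuous u)
    (hu2 : ContDiffOn ℝ 2 u {0}ᶜ) (hpos : ∀ x, 0 < u x) (hl : ∀ x, x ≠ 0 → lap u x < 0) :
    ∃ c : ℝ, 0 < c ∧ ∀ x, 1 ≤ ‖x‖ → c * (‖x‖ ^ 2) ^ ((2 - (n : ℝ)) / 2) ≤ u x := by
  have hn3 : (3 : ℝ) ≤ (n : ℝ) := by exact_mod_cast hn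
  set m : ℝ := (2 - (n : ℝ)) / 2 with hm
  have hmneg : 0 < -m := by
    rw [hm]
    linarith
  have i0 : Fin n := ⟨0, by omega⟩
  have hSc : IsCompact (Metric.sphere (0 : EuclideanSpace ℝ (Fin n)) 1) := isCompact_sphere 0 1
  have hSn : (Metric.sphere (0 : EuclideanSpace ℝ (Fin n)) 1).Nonempty :=
    ⟨EuclideanSpace.single i0 1, by simp⟩
  obtain ⟨z, hz, hzmin⟩ := hSc.exists_isMinOn hSn hu.continuousOn
  have hS : ∀ y : EuclideanSpace ℝ (Fin n), ‖y‖ = 1 → u z ≤ u y := fun y hy =>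
    hzmin (by simpa using hy)
  have hzpos := hpos z
  refine ⟨u z, hzpos, fun x hx => ?_⟩
  have ht : Tendsto (fun R : ℝ => u z * (‖x‖ ^ 2) ^ m - u z * (R ^ 2) ^ m) atTop
      (𝓝 (u z * (‖x‖ ^ 2) ^ m)) := by
    have h1 : Tendsto (fun R : ℝ => R ^ 2) atTop atTop := tendsto_pow_atTop (by norm_num)
    have h2 : Tendsto (fun R : ℝ => (R ^ 2) ^ m) atTop (𝓝 0) := by
      have := (tendsto_rpow_neg_atTop hmneg).comp h1
      simpa [Function.comp_def] using this
    have h3 := (h2.const_mul (u z)).const_sub (u z * (‖x‖ ^ 2) ^ m)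
    simpa using h3
  refine le_of_tendsto ht ?_
  filter_upwards [eventually_gt_atTop ‖x‖] with R hR
  have hR1 : 1 < R := lt_of_le_of_lt hx hR
  have hR0 : 0 < R := by linarith
  have hRm : 0 ≤ u z * (R ^ 2) ^ m := by positivity
  have h1 := compare (u := u) (a := 1) (b := R)
    (h := bar (n := n) (-(u z * (R ^ 2) ^ m)) 0 (u z) m)
    one_pos hu hu2 (fun y hy => bar_cda _ _ _ _ y hy)
    (by
      intro y hy1 hy2
      have hy : y ≠ 0 := norm_pos_iff.1 (lt_trans one_pos hy1)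
      rw [hm, lap_bar _ _ _ y hy]
      simpa using hl y hy)
    (by
      intro y hy
      have := hS y hy
      rw [bar, hy]
      simp only [one_pow, Real.log_one, mul_zero, Real.one_rpow, mul_one, add_zero]
      linarith)
    (by
      intro y hy
      rw [bar, hy]
      refine le_trans (le_of_eq ?_) (hpos y).le
      ring) x hx hR.le
  rw [bar] at h1
  linarith

/-- no positive function satisfies `-lap v >= c / |x|^2` near infinity -/
theorem noinf {n : ℕ} (hn : 3 ≤ n) {v : EuclideanSpace ℝ (Fin n) → ℝ} (hv : Continuous v)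
    (hv2 : ContDiffOn ℝ 2 v {0}ᶜ) (hpos : ∀ x, 0 < v x) {c : ℝ} (hc : 0 < c)
    (hl : ∀ x, 1 ≤ ‖x‖ → lap v x ≤ - (c / ‖x‖ ^ 2)) : False := by
  have hn3 : (3 : ℝ) ≤ (n : ℝ) := by exact_mod_cast hn
  set m : ℝ := (2 - (n : ℝ)) / 2 with hm
  have hmneg : m < 0 := by
    rw [hm]
    linarith
  have hN : 0 < 2 * (n : ℝ) - 4 := by linarith
  set β : ℝ := c / (2 * (2 * (n : ℝ) - 4)) with hβ
  have hβpos : 0 < β := by
    rw [hβ]
    positivity
  have hβ2 : (-β) * (2 * n - 4) = - (c / 2) := by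
    rw [hβ]
    field_simp
  have i0 : Fin n := ⟨0, by omega⟩
  set x : EuclideanSpace ℝ (Fin n) := EuclideanSpace.single i0 2 with hx
  have hnx : ‖x‖ = 2 := by simp [hx]
  have hk : 0 < 1 - ((2 : ℝ) ^ 2) ^ m := by
    have : ((2 : ℝ) ^ 2) ^ m < 1 := Real.rpow_lt_one_of_one_lt_of_neg (by norm_num) hmneg
    linarith
  have key : ∀ R : ℝ, 2 < R → β * Real.log (R ^ 2) * (1 - ((2 : ℝ) ^ 2) ^ m) -
      β * Real.log (2 ^ 2) ≤ v x := by
    intro R hR
    have hR0 : 0 < R := by linarith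
    have hlogR : 0 < Real.log (R ^ 2) := Real.log_pos (by nlinarith)
    have h1 := compare (u := v) (a := 1) (b := R)
      (h := bar (n := n) (β * Real.log (R ^ 2)) (-β) (-(β * Real.log (R ^ 2))) m)
      one_pos hv hv2 (fun y hy => bar_cda _ _ _ _ y hy)
      (by
        intro y hy1 hy2
        have hy : y ≠ 0 := norm_pos_iff.1 (lt_trans one_pos hy1)
        have hyp : 0 < ‖y‖ := norm_pos_iff.2 hy
        rw [hm, lap_bar _ _ _ y hy, hβ2]
        refine lt_of_le_of_lt (hl y hy1.le) ?_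
        rw [neg_div, neg_lt_neg_iff]
        have : c / 2 < c := by linarith
        exact div_lt_div_of_pos_right this (by positivity))
      (by
        intro y hy
        rw [bar, hy]
        simp only [one_pow, Real.log_one, mul_zero, Real.one_rpow, mul_one, add_zero]
        have := (hpos y).le
        linarith)
      (by
        intro y hy
        rw [bar, hy]
        have h7 : 0 ≤ β * Real.log (R ^ 2) * (R ^ 2) ^ m := by positivity
        have := (hpos y).le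
        linarith) x (by rw [hnx]; norm_num) (by rw [hnx]; exact hR.le)
    rw [bar, hnx] at h1
    linarith
  have hsq : Tendsto (fun R : ℝ => Real.log (R ^ 2)) atTop atTop :=
    Real.tendsto_log_atTop.comp (tendsto_pow_atTop (by norm_num))
  obtain ⟨R, hR1, hR2⟩ := ((hsq.eventually_gt_atTop ((v x + β * Real.log (2 ^ 2)) /
    (β * (1 - ((2 : ℝ) ^ 2) ^ m)))).and (eventually_gt_atTop 2)).exists
  have h3 := key R hR2
  rw [div_lt_iff₀ (by positivity)] at hR1
  linarith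

theorem small_q {n : ℕ} (hn : 3 ≤ n) {p q A B : ℝ} (hq : 0 < q)
    (hB : q * ((n : ℝ) - 2) ≤ B + 2)
    {u v : EuclideanSpace ℝ (Fin n) → ℝ} (h : IsEntireSolution n p q A B u v) : False := by
  obtain ⟨c, hc, hcu⟩ := lower hn h.contu h.smoothu h.posu (lap_neg h)
  refine noinf hn h.contv h.smoothv h.posv (c := c ^ q) (by positivity) ?_
  intro x hx
  have hxp : 0 < ‖x‖ := by linarith
  have hx0 : x ≠ 0 := norm_pos_iff.1 hxp
  have h1 := h.eqv x hx0
  have h2 : (c * (‖x‖ ^ 2) ^ ((2 - (n : ℝ)) / 2)) ^ q ≤ u x ^ q :=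
    Real.rpow_le_rpow (by positivity) (hcu x hx) hq.le
  have h3 : (c * (‖x‖ ^ 2) ^ ((2 - (n : ℝ)) / 2)) ^ q = c ^ q * ‖x‖ ^ ((2 - (n : ℝ)) * q) := by
    rw [Real.mul_rpow hc.le (by positivity), ← Real.rpow_natCast ‖x‖ 2, ← Real.rpow_mul hxp.le,
      ← Real.rpow_mul hxp.le]
    congr 2
    push_cast
    ring
  have h4 : ‖x‖ ^ (-2 : ℝ) ≤ ‖x‖ ^ (B + (2 - (n : ℝ)) * q) :=
    Real.rpow_le_rpow_of_exponent_le hx (by nlinarith)
  have h6 : ‖x‖ ^ (-2 : ℝ) = (‖x‖ ^ 2)⁻¹ := by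
    rw [Real.rpow_neg hxp.le]
    norm_num
  have h7 : c ^ q / ‖x‖ ^ 2 ≤ ‖x‖ ^ B * u x ^ q := by
    calc c ^ q / ‖x‖ ^ 2 = c ^ q * ‖x‖ ^ (-2 : ℝ) := by rw [h6]; ring
      _ ≤ c ^ q * ‖x‖ ^ (B + (2 - (n : ℝ)) * q) := by gcongr
      _ = ‖x‖ ^ B * (c ^ q * ‖x‖ ^ ((2 - (n : ℝ)) * q)) := by
          rw [Real.rpow_add hxp]
          ring
      _ ≤ ‖x‖ ^ B * u x ^ q := by
          rw [← h3]
          gcongr
  linarith

end Vale.Agent.P100
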