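import Vale.Agent.P100.H39.Inf

namespace Vale.Agent.P100

open Set Filter Topology

theorem lap_bar' {n : ℕ} (α β γ m : ℝ) (x : EuclideanSpace ℝ (Fin n)) (hx : x ≠ 0) :
    lap (bar (n := n) α β γ m) x = β * (2 * n - 4) / ‖x‖ ^ 2 +
      γ * m * (‖x‖ ^ 2) ^ (m - 1) * (4 * (m - 1) + 2 * n) := by
  have hs : 0 < ‖x‖ ^ 2 := by positivity
  have h1 : ∀ i : Fin n, deriv (deriv fun t : ℝ =>
      bar (n := n) α β γ m (x + t • EuclideanSpace.single i (1 : ℝ))) 0 =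
      β * (2 * ‖x‖ ^ 2 - 4 * (x i) ^ 2) / (‖x‖ ^ 2) ^ 2 +
      γ * m * ((m - 1) * (‖x‖ ^ 2) ^ (m - 2) * (4 * (x i) ^ 2) + 2 * (‖x‖ ^ 2) ^ (m - 1)) := by
    intro i
    rw [← one_dim α β γ m (‖x‖ ^ 2) (x i) hs]
    congr 2
    funext t
    rw [bar, norm_line]
  unfold lap
  rw [Finset.sum_congr rfl fun i _ => h1 i]
  have h2 : ∑ i, (x i) ^ 2 = ‖x‖ ^ 2 := by
    rw [EuclideanSpace.norm_sq_eq]
    simp
  have h3 : (‖x‖ ^ 2) ^ (m - 1) = (‖x‖ ^ 2) ^ (m - 2) * ‖x‖ ^ 2 := by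
    rw [← Real.rpow_add_one hs.ne']
    congr 1
    ring
  have h4 : ∑ i : Fin n, (β * (2 * ‖x‖ ^ 2 - 4 * (x i) ^ 2) / (‖x‖ ^ 2) ^ 2 +
      γ * m * ((m - 1) * (‖x‖ ^ 2) ^ (m - 2) * (4 * (x i) ^ 2) + 2 * (‖x‖ ^ 2) ^ (m - 1))) =
      β * (2 * n * ‖x‖ ^ 2 - 4 * ∑ i, (x i) ^ 2) / (‖x‖ ^ 2) ^ 2 +
      γ * m * ((m - 1) * (‖x‖ ^ 2) ^ (m - 2) * (4 * ∑ i, (x i) ^ 2) +
        2 * n * (‖x‖ ^ 2) ^ (m - 1)) := by
    rw [Finset.sum_add_distrib]
    simp only [← Finset.sum_div, ← Finset.mul_sum, Finset.sum_sub_distrib, Finset.sum_add_distrib,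
      Finset.sum_const, Finset.card_univ, Fintype.card_fin, nsmul_eq_mul]
    ring
  rw [h4, h2, h3]
  have h6 : γ * m * ((m - 1) * (‖x‖ ^ 2) ^ (m - 2) * (4 * ‖x‖ ^ 2) +
        2 * n * ((‖x‖ ^ 2) ^ (m - 2) * ‖x‖ ^ 2)) =
        γ * m * ((‖x‖ ^ 2) ^ (m - 2) * ‖x‖ ^ 2) * (4 * (m - 1) + 2 * n) := by ring
  rw [h6]
  congr 1
  field_simp

/-- decay at most `|x|^(-a)` -/
def Low {n : ℕ} (w : EuclideanSpace ℝ (Fin n) → ℝ) (a : ℝ) : Prop :=
  ∃ c : ℝ, 0 < c ∧ ∀ x, 1 ≤ ‖x‖ → c * (‖x‖ ^ 2) ^ (-a / 2) ≤ w x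

theorem pow_lower {n : ℕ} (hn : 3 ≤ n) {u : EuclideanSpace ℝ (Fin n) → ℝ} (hu : Continuous u)
    (hu2 : ContDiffOn ℝ 2 u {0}ᶜ) (hpos : ∀ x, 0 < u x) {b c : ℝ} (hb : 0 < b)
    (hbn : b < (n : ℝ) - 2) (hc : 0 < c)
    (hl : ∀ x, 1 ≤ ‖x‖ → lap u x ≤ - (c * (‖x‖ ^ 2) ^ (-b / 2 - 1))) : Low u b := by
  set m : ℝ := -b / 2 with hm
  have hmneg : 0 < -m := by
    rw [hm]
    linarith
  have i0 : Fin n := ⟨0, by omega⟩
  have hSc : IsCompact (Metric.sphere (0 : EuclideanSpace ℝ (Fin n)) 1) := isCompact_sphere 0 1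
  have hSn : (Metric.sphere (0 : EuclideanSpace ℝ (Fin n)) 1).Nonempty :=
    ⟨EuclideanSpace.single i0 1, by simp⟩
  obtain ⟨z, hz, hzmin⟩ := hSc.exists_isMinOn hSn hu.continuousOn
  have hS : ∀ y : EuclideanSpace ℝ (Fin n), ‖y‖ = 1 → u z ≤ u y := fun y hy =>
    hzmin (by simpa using hy)
  have hzpos := hpos z
  set D : ℝ := b * ((n : ℝ) - 2 - b) with hD
  have hDpos : 0 < D := mul_pos hb (by linarith)
  set k : ℝ := min (u z) (c / (2 * D)) with hk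
  have hkpos : 0 < k := lt_min hzpos (by positivity)
  have hk1 : k ≤ u z := min_le_left _ _
  have hk2 : k * D ≤ c / 2 := by
    calc k * D ≤ c / (2 * D) * D := by
          gcongr
          exact min_le_right _ _
      _ = c / 2 := by
          field_simp
  refine ⟨k, hkpos, fun x hx => ?_⟩
  have ht : Tendsto (fun R : ℝ => k * (‖x‖ ^ 2) ^ m - k * (R ^ 2) ^ m) atTop
      (𝓝 (k * (‖x‖ ^ 2) ^ m)) := by
    have h1 : Tendsto (fun R : ℝ => R ^ 2) atTop atTop := tendsto_pow_atTop (by norm_num)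
    have h2 : Tendsto (fun R : ℝ => (R ^ 2) ^ m) atTop (𝓝 0) := by
      have := (tendsto_rpow_neg_atTop hmneg).comp h1
      simpa [Function.comp_def] using this
    have h3 := (h2.const_mul k).const_sub (k * (‖x‖ ^ 2) ^ m)
    simpa using h3
  refine le_of_tendsto ht ?_
  filter_upwards [eventually_gt_atTop ‖x‖] with R hR
  have hR1 : 1 < R := lt_of_le_of_lt hx hR
  have hR0 : 0 < R := by linarith
  have hRm : 0 ≤ k * (R ^ 2) ^ m := by positivity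
  have h1 := compare (u := u) (a := 1) (b := R)
    (h := bar (n := n) (-(k * (R ^ 2) ^ m)) 0 k m)
    one_pos hu hu2 (fun y hy => bar_cda _ _ _ _ y hy)
    (by
      intro y hy1 hy2
      have hy : y ≠ 0 := norm_pos_iff.1 (lt_trans one_pos hy1)
      have hyp : 0 < ‖y‖ := norm_pos_iff.2 hy
      have hP : 0 < (‖y‖ ^ 2) ^ (m - 1) := Real.rpow_pos_of_pos (by positivity) _
      rw [lap_bar' _ _ _ _ y hy]
      have e1 : k * m * (‖y‖ ^ 2) ^ (m - 1) * (4 * (m - 1) + 2 * n) =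
          -(k * D * (‖y‖ ^ 2) ^ (m - 1)) := by
        rw [hD, hm]
        ring
      rw [e1]
      have h2 := hl y hy1.le
      have h3 : k * D * (‖y‖ ^ 2) ^ (m - 1) ≤ c / 2 * (‖y‖ ^ 2) ^ (m - 1) := by gcongr
      have h4 : 0 < c * (‖y‖ ^ 2) ^ (m - 1) := by positivity
      have h5 : (0 : ℝ) * (2 * n - 4) / ‖y‖ ^ 2 = 0 := by ring
      rw [h5]
      linarith)
    (by
      intro y hy
      have := hS y hy
      rw [bar, hy]
      simp only [one_pow, Real.log_one, mul_zero, Real.one_rpow, mul_one, add_zero]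
      linarith)
    (by
      intro y hy
      rw [bar, hy]
      refine le_trans (le_of_eq ?_) (hpos y).le
      ring) x hx hR.le
  rw [bar] at h1
  linarith

theorem low_top {n : ℕ} (hn : 3 ≤ n) {p q A B : ℝ} {u v : EuclideanSpace ℝ (Fin n) → ℝ}
    (h : IsEntireSolution n p q A B u v) : Low u ((n : ℝ) - 2) := by
  obtain ⟨c, hc, hcu⟩ := lower hn h.contu h.smoothu h.posu (lap_neg h)
  refine ⟨c, hc, fun x hx => ?_⟩
  have e : -((n : ℝ) - 2) / 2 = (2 - (n : ℝ)) / 2 := by ring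
  rw [e]
  exact hcu x hx

theorem step {n : ℕ} (hn : 3 ≤ n) {p q A B : ℝ} (hq : 0 < q)
    {u v : EuclideanSpace ℝ (Fin n) → ℝ} (h : IsEntireSolution n p q A B u v) {a : ℝ}
    (ha : Low u a) : 0 < q * a - B - 2 ∧ Low v (min (q * a - B - 2) ((n : ℝ) - 2)) := by
  obtain ⟨c, hc, hcu⟩ := ha
  set b : ℝ := q * a - B - 2 with hb
  have hlv : ∀ x : EuclideanSpace ℝ (Fin n), 1 ≤ ‖x‖ →
      lap v x ≤ - (c ^ q * (‖x‖ ^ 2) ^ (-b / 2 - 1)) := by
    intro x hx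
    have hxp : 0 < ‖x‖ := by linarith
    have hx0 : x ≠ 0 := norm_pos_iff.1 hxp
    have h1 := h.eqv x hx0
    have h2 : (c * (‖x‖ ^ 2) ^ (-a / 2)) ^ q ≤ u x ^ q :=
      Real.rpow_le_rpow (by positivity) (hcu x hx) hq.le
    have h3 : ‖x‖ ^ B * (c * (‖x‖ ^ 2) ^ (-a / 2)) ^ q = c ^ q * (‖x‖ ^ 2) ^ (-b / 2 - 1) := by
      rw [Real.mul_rpow hc.le (by positivity), ← Real.rpow_natCast ‖x‖ 2, ← Real.rpow_mul hxp.le,
        ← Real.rpow_mul hxp.le, ← Real.rpow_mul hxp.le, mul_left_comm, ← Real.rpow_add hxp]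
      congr 2
      rw [hb]
      push_cast
      ring
    have h7 : c ^ q * (‖x‖ ^ 2) ^ (-b / 2 - 1) ≤ ‖x‖ ^ B * u x ^ q := by
      rw [← h3]
      gcongr
    linarith
  have hb0 : 0 < b := by
    by_contra hneg
    push Not at hneg
    refine noinf hn h.contv h.smoothv h.posv (c := c ^ q) (by positivity) ?_
    intro x hx
    have hxp : 0 < ‖x‖ := by linarith
    have h1 := hlv x hx
    have h2 : (‖x‖ ^ 2) ^ (-1 : ℝ) ≤ (‖x‖ ^ 2) ^ (-b / 2 - 1) :=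
      Real.rpow_le_rpow_of_exponent_le (by nlinarith) (by linarith)
    have h3 : (‖x‖ ^ 2) ^ (-1 : ℝ) = (‖x‖ ^ 2)⁻¹ := Real.rpow_neg_one _
    have h4 : c ^ q / ‖x‖ ^ 2 ≤ c ^ q * (‖x‖ ^ 2) ^ (-b / 2 - 1) := by
      rw [div_eq_mul_inv, ← h3]
      gcongr
    linarith
  refine ⟨hb0, ?_⟩
  rcases lt_or_ge b ((n : ℝ) - 2) with hlt | hge
  · rw [min_eq_left hlt.le]
    exact pow_lower hn h.contv h.smoothv h.posv hb0 hlt (by positivity) hlv
  · rw [min_eq_right hge]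
    exact low_top hn h.symm

/-- necessary condition for existence -/
theorem necessary {n : ℕ} (hn : 3 ≤ n) {p q A B : ℝ} (hp : 0 < p) (hq : 0 < q)
    {u v : EuclideanSpace ℝ (Fin n) → ℝ} (h : IsEntireSolution n p q A B u v) :
    p * (B + 2) + (A + 2) ≤ max 0 ((p * q - 1) * ((n : ℝ) - 2)) := by
  have hn3 : (3 : ℝ) ≤ (n : ℝ) := by exact_mod_cast hn
  set N : ℝ := (n : ℝ) - 2 with hN
  have hN0 : 0 < N := by linarith
  set S : Set ℝ := {a | 0 < a ∧ a ≤ N ∧ Low u a} with hS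
  have hne : S.Nonempty := ⟨N, hN0, le_rfl, low_top hn h⟩
  have hbd : BddBelow S := ⟨0, fun a ha => ha.1.le⟩
  set a0 : ℝ := sInf S with ha0
  have h00 : 0 ≤ a0 := le_csInf hne fun a ha => ha.1.le
  have h0N : a0 ≤ N := csInf_le hbd ⟨hN0, le_rfl, low_top hn h⟩
  have hT : ∀ a ∈ S, a0 ≤ p * (q * a - B - 2) - A - 2 := by
    intro a ha
    obtain ⟨h1, h2⟩ := step hn hq h ha.2.2
    obtain ⟨h3, h4⟩ := step hn hp h.symm h2
    have h5 : min (p * min (q * a - B - 2) N - A - 2) N ∈ S :=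
      ⟨lt_min h3 hN0, min_le_right _ _, h4⟩
    have h6 : a0 ≤ min (p * min (q * a - B - 2) N - A - 2) N := csInf_le hbd h5
    have h7 : p * min (q * a - B - 2) N ≤ p * (q * a - B - 2) := by
      gcongr
      exact min_le_left _ _
    have h8 := h6.trans (min_le_left _ _)
    linarith
  have hlim : a0 ≤ p * (q * a0 - B - 2) - A - 2 := by
    by_contra hneg
    push Not at hneg
    have hε : 0 < (a0 - (p * (q * a0 - B - 2) - A - 2)) / (p * q) := by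
      refine div_pos (by linarith) (by positivity)
    obtain ⟨a, ha, hlt⟩ := Real.lt_sInf_add_pos hne hε
    have h1 := hT a ha
    have h2 : a - a0 < (a0 - (p * (q * a0 - B - 2) - A - 2)) / (p * q) := by linarith
    rw [lt_div_iff₀ (by positivity)] at h2
    nlinarith
  have hfin : p * (B + 2) + (A + 2) ≤ (p * q - 1) * a0 := by linarith
  rcases le_or_gt (p * q - 1) 0 with hle | hgt
  · exact (hfin.trans (mul_nonpos_of_nonpos_of_nonneg hle h00)).trans (le_max_left _ _)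
  · exact (hfin.trans (mul_le_mul_of_nonneg_left h0N hgt.le)).trans (le_max_right _ _)

end Vale.Agent.P100
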