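import Vale.Agent.P100.H39.Bar

namespace Vale.Agent.P100

open Set Filter Topology

theorem lap_neg {n : ℕ} {p q A B : ℝ} {u v : EuclideanSpace ℝ (Fin n) → ℝ}
    (h : IsEntireSolution n p q A B u v) (x : EuclideanSpace ℝ (Fin n)) (hx : x ≠ 0) :
    lap u x < 0 := by
  have h1 := h.equ x hx
  have h2 : 0 < ‖x‖ ^ A * v x ^ p :=
    mul_pos (Real.rpow_pos_of_pos (norm_pos_iff.2 hx) _) (Real.rpow_pos_of_pos (h.posv x) _)
  linarith

theorem tends (m c : ℝ) :
    Tendsto (fun R : ℝ => m + c / Real.log (R ^ 2)) atTop (𝓝 m) := by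
  have h1 : Tendsto (fun R : ℝ => Real.log (R ^ 2)) atTop atTop :=
    Real.tendsto_log_atTop.comp (tendsto_pow_atTop (by norm_num))
  have h2 : Tendsto (fun R : ℝ => c / Real.log (R ^ 2)) atTop (𝓝 0) :=
    h1.const_div_atTop c
  simpa using h2.const_add m

theorem plane {p q A B : ℝ} {u v : EuclideanSpace ℝ (Fin 2) → ℝ}
    (h : IsEntireSolution 2 p q A B u v) : False := by
  have hSc : IsCompact (Metric.sphere (0 : EuclideanSpace ℝ (Fin 2)) 1) := isCompact_sphere 0 1
  have hSn : (Metric.sphere (0 : EuclideanSpace ℝ (Fin 2)) 1).Nonempty :=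
    ⟨EuclideanSpace.single 0 1, by simp⟩
  obtain ⟨z, hz, hzmin⟩ := hSc.exists_isMinOn hSn h.contu.continuousOn
  have hz1 : ‖z‖ = 1 := by simpa using hz
  have hz0 : z ≠ 0 := by
    intro h0
    rw [h0, norm_zero] at hz1
    norm_num at hz1
  have hS : ∀ y : EuclideanSpace ℝ (Fin 2), ‖y‖ = 1 → u z ≤ u y := fun y hy =>
    hzmin (by simpa using hy)
  have hzpos := h.posu z
  have hlb : ∀ (β : ℝ) (x : EuclideanSpace ℝ (Fin 2)), x ≠ 0 →
      lap u x < lap (bar (n := 2) (u z) β 0 ((2 - ((2 : ℕ) : ℝ)) / 2)) x := by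
    intro β x hx
    rw [lap_bar _ _ _ x hx]
    have := lap_neg h x hx
    norm_num
    exact this
  have key : ∀ x : EuclideanSpace ℝ (Fin 2), x ≠ 0 → u z ≤ u x := by
    intro x hx
    have hxp : 0 < ‖x‖ := norm_pos_iff.2 hx
    rcases lt_trichotomy ‖x‖ 1 with hlt | heq | hgt
    · -- inside
      refine le_of_tendsto (tends (u z) (u z * Real.log (‖x‖ ^ 2))) ?_
      filter_upwards [eventually_gt_atTop (1 / ‖x‖), eventually_gt_atTop 1] with R hR hR1
      have hR0 : 0 < R := by linarith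
      have hlog : 0 < Real.log (R ^ 2) := Real.log_pos (by nlinarith)
      have e : (1 / R) < ‖x‖ := by
        rw [div_lt_iff₀ hR0]
        rw [div_lt_iff₀ hxp] at hR
        linarith
      have h1 := compare (u := u) (a := 1 / R) (b := 1)
        (h := bar (n := 2) (u z) (u z / Real.log (R ^ 2)) 0 ((2 - ((2 : ℕ) : ℝ)) / 2))
        (by positivity) h.contu h.smoothu (fun y hy => bar_cda _ _ _ _ y hy)
        (fun y hy1 hy2 => hlb _ y (norm_pos_iff.1 (lt_trans (by positivity) hy1)))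
        (by
          intro y hy
          have e2 : Real.log (‖y‖ ^ 2) = - Real.log (R ^ 2) := by
            rw [hy, one_div, inv_pow, Real.log_inv]
          rw [bar, e2]
          have : u z + u z / Real.log (R ^ 2) * -Real.log (R ^ 2) +
              0 * (‖y‖ ^ 2) ^ ((2 - ((2 : ℕ) : ℝ)) / 2) = 0 := by
            field_simp
            ring
          rw [this]
          exact (h.posu y).le)
        (by
          intro y hy
          rw [bar, hy]
          simp
          exact hS y hy) x e.le hlt.le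
      rw [bar] at h1
      have e3 : u z + u z / Real.log (R ^ 2) * Real.log (‖x‖ ^ 2) +
          0 * (‖x‖ ^ 2) ^ ((2 - ((2 : ℕ) : ℝ)) / 2) =
          u z + u z * Real.log (‖x‖ ^ 2) / Real.log (R ^ 2) := by
        ring
      rw [e3] at h1
      exact h1
    · exact hS x heq
    · refine le_of_tendsto (tends (u z) (-(u z * Real.log (‖x‖ ^ 2)))) ?_
      filter_upwards [eventually_gt_atTop ‖x‖] with R hR
      have hR1 : 1 < R := hgt.trans hR
      have hR0 : 0 < R := by linarith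
      have hlog : 0 < Real.log (R ^ 2) := Real.log_pos (by nlinarith)
      have h1 := compare (u := u) (a := 1) (b := R)
        (h := bar (n := 2) (u z) (-(u z / Real.log (R ^ 2))) 0 ((2 - ((2 : ℕ) : ℝ)) / 2))
        (by positivity) h.contu h.smoothu (fun y hy => bar_cda _ _ _ _ y hy)
        (fun y hy1 hy2 => hlb _ y (norm_pos_iff.1 (lt_trans (by positivity) hy1)))
        (by
          intro y hy
          rw [bar, hy]
          simp
          exact hS y hy)
        (by
          intro y hy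
          rw [bar, hy]
          have : u z + -(u z / Real.log (R ^ 2)) * Real.log (R ^ 2) +
              0 * (R ^ 2) ^ ((2 - ((2 : ℕ) : ℝ)) / 2) = 0 := by
            field_simp
            ring
          rw [this]
          exact (h.posu y).le) x hgt.le hR.le
      rw [bar] at h1
      have e3 : u z + -(u z / Real.log (R ^ 2)) * Real.log (‖x‖ ^ 2) +
          0 * (‖x‖ ^ 2) ^ ((2 - ((2 : ℕ) : ℝ)) / 2) =
          u z + -(u z * Real.log (‖x‖ ^ 2)) / Real.log (R ^ 2) := by
        ring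
      rw [e3] at h1
      exact h1
  have hloc : IsLocalMin u z := by
    filter_upwards [isOpen_compl_singleton.mem_nhds hz0] with y hy
    exact key y hy
  have h5 := lap_nonneg (h.smoothu.contDiffAt (isOpen_compl_singleton.mem_nhds hz0)) hloc
  have h6 := lap_neg h z hz0
  linarith

/-- the singular weight: a continuous `u` cannot satisfy `-lap u >= c / |x|^2` near `0` -/
theorem sing {n : ℕ} (hn : 3 ≤ n) {u : EuclideanSpace ℝ (Fin n) → ℝ} (hu : Continuous u)
    (hu2 : ContDiffOn ℝ 2 u {0}ᶜ) (hpos : ∀ x, 0 < u x) {c ρ : ℝ} (hc : 0 < c) (hρ : 0 < ρ)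
    (hρ1 : ρ < 1) (hl : ∀ x, x ≠ 0 → ‖x‖ ≤ ρ → lap u x ≤ - (c / ‖x‖ ^ 2)) : False := by
  have hn3 : (3 : ℝ) ≤ (n : ℝ) := by exact_mod_cast hn
  set m : ℝ := (2 - (n : ℝ)) / 2 with hm
  have hmneg : 0 < -m := by
    rw [hm]
    linarith
  have hN : 0 < 2 * (n : ℝ) - 4 := by linarith
  set β : ℝ := -(c / (2 * (2 * (n : ℝ) - 4))) with hβ
  have hβneg : 0 < -β := by
    rw [hβ, neg_neg]
    positivity
  have hβ0 : β ≠ 0 := by
    intro h0
    rw [h0] at hβneg
    simp at hβneg
  have hβ2 : β * (2 * n - 4) = - (c / 2) := by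
    rw [hβ]
    field_simp
  have key : ∀ x : EuclideanSpace ℝ (Fin n), x ≠ 0 → ‖x‖ ≤ ρ →
      β * (Real.log (‖x‖ ^ 2) - Real.log (ρ ^ 2)) ≤ u x := by
    intro x hx hxρ
    have hxp : 0 < ‖x‖ := norm_pos_iff.2 hx
    have hδ : ∀ δ : ℝ, 0 < δ → β * (Real.log (‖x‖ ^ 2) - Real.log (ρ ^ 2)) -
        δ * ((‖x‖ ^ 2) ^ m - (ρ ^ 2) ^ m) ≤ u x := by
      intro δ hδ
      have hlo := (isLittleO_log_rpow_atTop hmneg).def (c := δ / (2 * (-β))) (by positivity)
      have hto := (tendsto_rpow_atTop hmneg).eventually_ge_atTop (2 * (ρ ^ 2) ^ m)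
      have hsq : Tendsto (fun R : ℝ => R ^ 2) atTop atTop := tendsto_pow_atTop (by norm_num)
      obtain ⟨R, hR1, hR2, hR3, hR4⟩ := ((hsq.eventually hlo).and ((hsq.eventually hto).and
        ((eventually_gt_atTop 1).and (eventually_gt_atTop (1 / ‖x‖))))).exists
      have hR0 : 0 < R := by linarith
      have e : (1 / R) < ‖x‖ := by
        rw [div_lt_iff₀ hR0]
        rw [div_lt_iff₀ hxp] at hR4
        linarith
      have hlogR : 0 < Real.log (R ^ 2) := Real.log_pos (by nlinarith)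
      have hlogρ : Real.log (ρ ^ 2) < 0 := Real.log_neg (by positivity) (by nlinarith)
      have hR1' : Real.log (R ^ 2) ≤ δ / (2 * (-β)) * (R ^ 2) ^ (-m) := by
        rw [Real.norm_of_nonneg hlogR.le, Real.norm_of_nonneg (by positivity)] at hR1
        exact hR1
      have h1 := compare (u := u) (a := 1 / R) (b := ρ)
        (h := bar (n := n) (-(β * Real.log (ρ ^ 2)) + δ * (ρ ^ 2) ^ m) β (-δ) m)
        (by positivity) hu hu2 (fun y hy => bar_cda _ _ _ _ y hy)
        (by
          intro y hy1 hy2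
          have hy : y ≠ 0 := norm_pos_iff.1 (lt_trans (by positivity) hy1)
          have hyp : 0 < ‖y‖ := norm_pos_iff.2 hy
          rw [hm, lap_bar _ _ _ y hy, hβ2]
          refine lt_of_le_of_lt (hl y hy hy2.le) ?_
          rw [neg_div, neg_lt_neg_iff]
          have : c / 2 < c := by linarith
          exact div_lt_div_of_pos_right this (by positivity))
        (by
          intro y hy
          have e2 : Real.log (‖y‖ ^ 2) = - Real.log (R ^ 2) := by
            rw [hy, one_div, inv_pow, Real.log_inv]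
          have e3 : (‖y‖ ^ 2) ^ m = (R ^ 2) ^ (-m) := by
            rw [hy, one_div, inv_pow, Real.inv_rpow (by positivity),
              Real.rpow_neg (by positivity)]
          rw [bar, e2, e3]
          refine le_trans ?_ (hpos y).le
          have h7 : (-β) * Real.log (R ^ 2) ≤ δ / 2 * (R ^ 2) ^ (-m) := by
            calc (-β) * Real.log (R ^ 2) ≤ (-β) * (δ / (2 * (-β)) * (R ^ 2) ^ (-m)) :=
                  mul_le_mul_of_nonneg_left hR1' hβneg.le
              _ = δ / 2 * (R ^ 2) ^ (-m) := by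
                  field_simp
          have h8 : δ * (ρ ^ 2) ^ m ≤ δ / 2 * (R ^ 2) ^ (-m) := by
            have := mul_le_mul_of_nonneg_left hR2 (by positivity : (0 : ℝ) ≤ δ / 2)
            linarith
          have h9 : (-β) * Real.log (ρ ^ 2) ≤ 0 :=
            mul_nonpos_of_nonneg_of_nonpos hβneg.le hlogρ.le
          linarith)
        (by
          intro y hy
          rw [bar, hy]
          refine le_trans (le_of_eq ?_) (hpos y).le
          ring) x e.le hxρ
      rw [bar] at h1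
      refine le_trans (le_of_eq ?_) h1
      ring
    have ht : Tendsto (fun δ : ℝ => β * (Real.log (‖x‖ ^ 2) - Real.log (ρ ^ 2)) -
        δ * ((‖x‖ ^ 2) ^ m - (ρ ^ 2) ^ m)) (𝓝[>] 0)
        (𝓝 (β * (Real.log (‖x‖ ^ 2) - Real.log (ρ ^ 2)))) := by
      have : Continuous (fun δ : ℝ => β * (Real.log (‖x‖ ^ 2) - Real.log (ρ ^ 2)) -
        δ * ((‖x‖ ^ 2) ^ m - (ρ ^ 2) ^ m)) := by fun_prop
      have h2 := (this.tendsto 0).mono_left (nhdsWithin_le_nhds (s := Ioi (0 : ℝ)))
      simpa using h2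
    refine le_of_tendsto ht ?_
    filter_upwards [self_mem_nhdsWithin] with δ hδ0
    exact hδ δ hδ0
  -- blow up at the origin
  have i0 : Fin n := ⟨0, by omega⟩
  set e : EuclideanSpace ℝ (Fin n) := EuclideanSpace.single i0 1 with he
  have hne : ‖e‖ = 1 := by simp [he]
  have hcu : Tendsto (fun t : ℝ => u (t • e)) (𝓝[>] 0) (𝓝 (u 0)) := by
    have : Continuous (fun t : ℝ => u (t • e)) := by fun_prop
    have h2 := (this.tendsto 0).mono_left (nhdsWithin_le_nhds (s := Ioi (0 : ℝ)))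
    simpa using h2
  have h1 : ∀ᶠ t in 𝓝[>] (0 : ℝ), u (t • e) < u 0 + 1 := hcu.eventually_lt_const (by linarith)
  have hlog : Tendsto (fun t : ℝ => Real.log t) (𝓝[>] 0) atBot := Real.tendsto_log_nhdsGT_zero
  have h2 := hlog.eventually_lt_atBot ((Real.log (ρ ^ 2) - (u 0 + 1) / (-β)) / 2)
  have h3 : ∀ᶠ t in 𝓝[>] (0 : ℝ), t < ρ :=
    (eventually_lt_nhds hρ).filter_mono nhdsWithin_le_nhds
  obtain ⟨t, ht1, ht2, ht3, ht4⟩ := (h1.and (h2.and (h3.and self_mem_nhdsWithin))).exists
  have ht0 : (0 : ℝ) < t := ht4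
  have hnt : ‖t • e‖ = t := by
    rw [norm_smul, hne, mul_one, Real.norm_of_nonneg ht0.le]
  have hte : t • e ≠ 0 := by
    rw [← norm_pos_iff, hnt]
    exact ht0
  have h4 := key (t • e) hte (by rw [hnt]; exact ht3.le)
  rw [hnt, Real.log_pow] at h4
  push_cast at h4
  have h5 : 2 * Real.log t - Real.log (ρ ^ 2) < - ((u 0 + 1) / (-β)) := by linarith
  have h6 : (-β) * (2 * Real.log t - Real.log (ρ ^ 2)) < (-β) * (- ((u 0 + 1) / (-β))) :=
    mul_lt_mul_of_pos_left h5 hβneg
  have h7 : (-β) * (- ((u 0 + 1) / (-β))) = - (u 0 + 1) := by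
    field_simp
  rw [h7] at h6
  linarith

theorem weight {n : ℕ} (hn : 3 ≤ n) {p q A B : ℝ} (hp : 0 < p) (hA : A ≤ -2)
    {u v : EuclideanSpace ℝ (Fin n) → ℝ} (h : IsEntireSolution n p q A B u v) : False := by
  have hv0 := h.posv 0
  have h1 : ∀ᶠ x in 𝓝 (0 : EuclideanSpace ℝ (Fin n)), v 0 / 2 < v x :=
    (h.contv.tendsto 0).eventually_const_lt (by linarith)
  obtain ⟨r, hr, hr2⟩ := Metric.eventually_nhds_iff.1 h1
  refine sing hn h.contu h.smoothu h.posu (c := (v 0 / 2) ^ p) (ρ := min (r / 2) (1 / 2))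
    (by positivity) (by positivity) (lt_of_le_of_lt (min_le_right _ _) (by norm_num)) ?_
  intro x hx hxρ
  have hxp : 0 < ‖x‖ := norm_pos_iff.2 hx
  have hx1 : ‖x‖ ≤ 1 := hxρ.trans ((min_le_right _ _).trans (by norm_num))
  have hxr : ‖x‖ < r := lt_of_le_of_lt (hxρ.trans (min_le_left _ _)) (by linarith)
  have h2 : v 0 / 2 < v x := hr2 (by simpa using hxr)
  have h3 : (v 0 / 2) ^ p ≤ v x ^ p :=
    Real.rpow_le_rpow (by positivity) h2.le hp.le
  have h4 : ‖x‖ ^ (-2 : ℝ) ≤ ‖x‖ ^ A := Real.rpow_le_rpow_of_exponent_ge hxp hx1 hA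
  have h5 := h.equ x hx
  have h6 : ‖x‖ ^ (-2 : ℝ) = (‖x‖ ^ 2)⁻¹ := by
    rw [Real.rpow_neg hxp.le]
    norm_num
  have h7 : (v 0 / 2) ^ p / ‖x‖ ^ 2 ≤ ‖x‖ ^ A * v x ^ p := by
    rw [div_eq_mul_inv, mul_comm, ← h6]
    exact mul_le_mul h4 h3 (by positivity) (by positivity)
  linarith

theorem IsEntireSolution.symm {n : ℕ} {p q A B : ℝ} {u v : EuclideanSpace ℝ (Fin n) → ℝ}
    (h : IsEntireSolution n p q A B u v) : IsEntireSolution n q p B A v u :=
  ⟨h.contv, h.contu, h.smoothv, h.smoothu, h.posv, h.posu, h.eqv, h.equ⟩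

end Vale.Agent.P100
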